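import Mathlib

open MeasureTheory Set Module
open scoped ENNReal

namespace Vale.Agent.Results.P214.PlaneArrangements

/-- The ambient Euclidean space of dimension `N`. -/
abbrev Amb (N : ℕ) : Type := EuclideanSpace ℝ (Fin N)

/-- The weight measure of the integral varifold given by the affine subspaces `P i`
with the multiplicities `θ i`. -/
noncomputable def weight {N : ℕ} {ι : Type} [Fintype ι] (m : ℕ)
    (P : ι → AffineSubspace ℝ (Amb N)) (θ : ι → ℕ) : Measure (Amb N) :=
  ∑ i, (θ i : ℝ≥0∞) • (Measure.hausdorffMeasure (m : ℝ)).restrict (P i : Set (Amb N))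

/-- `p` is a flat point of the measure `μ`: in an open neighbourhood `W` of `p` the measure is
a positive integer multiple of the `m`-dimensional Hausdorff measure on an affine `m`-plane
through `p`. -/
def IsFlatPoint {N : ℕ} (m : ℕ) (μ : Measure (Amb N)) (p : Amb N) : Prop :=
  ∃ (W : Set (Amb N)) (Q : AffineSubspace ℝ (Amb N)) (q : ℕ),
    IsOpen W ∧ p ∈ W ∧ p ∈ Q ∧ finrank ℝ Q.direction = m ∧ 1 ≤ q ∧
    μ.restrict W = (q : ℝ≥0∞) • (Measure.hausdorffMeasure (m : ℝ)).restrict ((Q : Set (Amb N)) ∩ W)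

theorem dimH_submodule {N : ℕ} (D : Submodule ℝ (Amb N)) :
    dimH (D : Set (Amb N)) = finrank ℝ D := by
  have h1 : (D : Set (Amb N)) = D.subtypeₗᵢ '' (univ : Set D) := by
    ext x; simp
  rw [h1, D.subtypeₗᵢ.isometry.dimH_image, Real.dimH_univ_eq_finrank]

theorem dimH_affine {N : ℕ} (R : AffineSubspace ℝ (Amb N)) :
    dimH (R : Set (Amb N)) ≤ finrank ℝ R.direction := by
  rcases (R : Set (Amb N)).eq_empty_or_nonempty with h | ⟨p, hp⟩
  · rw [h, dimH_empty]; exact zero_le
  · have h1 : (R : Set (Amb N)) = (IsometryEquiv.addRight p) '' (R.direction : Set (Amb N)) := by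
      ext x
      constructor
      · intro hx
        refine ⟨x - p, ?_, by simp⟩
        exact AffineSubspace.vsub_mem_direction hx hp
      · rintro ⟨v, hv, rfl⟩
        simpa using AffineSubspace.vadd_mem_of_mem_direction hv hp
    rw [h1, IsometryEquiv.dimH_image, dimH_submodule]

theorem inter_dim {N m : ℕ} (A B : AffineSubspace ℝ (Amb N))
    (hA : finrank ℝ A.direction = m) (hB : finrank ℝ B.direction = m) (hAB : A ≠ B) :
    dimH ((A : Set (Amb N)) ∩ B) ≤ ((m - 1 : ℕ) : ℝ≥0∞) := by
  rcases ((A : Set (Amb N)) ∩ B).eq_empty_or_nonempty with h | ⟨p, hpA, hpB⟩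
  · rw [h, dimH_empty]; exact zero_le
  · have h1 : ((A : Set (Amb N)) ∩ B) = ((A ⊓ B : AffineSubspace ℝ (Amb N)) : Set (Amb N)) := rfl
    rw [h1]
    refine (dimH_affine _).trans ?_
    have h2 : (A ⊓ B).direction = A.direction ⊓ B.direction :=
      AffineSubspace.direction_inf_of_mem hpA hpB
    rw [h2]
    have h3 : finrank ℝ (A.direction ⊓ B.direction : Submodule ℝ (Amb N)) < m := by
      by_contra hcon
      push Not at hcon
      have e1 : A.direction ⊓ B.direction = A.direction :=
        Submodule.eq_of_le_of_finrank_le inf_le_left (by rw [hA]; exact hcon)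
      have e2 : A.direction ⊓ B.direction = B.direction :=
        Submodule.eq_of_le_of_finrank_le inf_le_right (by rw [hB]; exact hcon)
      apply hAB
      exact AffineSubspace.ext_of_direction_eq (e1.symm.trans e2) ⟨p, hpA, hpB⟩
    exact_mod_cast Nat.le_sub_one_of_lt h3

theorem flat_of_single {N m : ℕ} {ι : Type} [Fintype ι]
    (P : ι → AffineSubspace ℝ (Amb N)) (θ : ι → ℕ)
    (hP : ∀ i, finrank ℝ (P i).direction = m) (hθ : ∀ i, 1 ≤ θ i)
    (p : Amb N) (i0 : ι) (hp : p ∈ P i0) (hsame : ∀ i, p ∈ P i → P i = P i0) :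
    IsFlatPoint m (weight m P θ) p := by
  classical
  set W : Set (Amb N) := ⋂ i, ⋂ (_ : p ∉ P i), ((P i : Set (Amb N)))ᶜ with hWdef
  have hWo : IsOpen W :=
    isOpen_iInter_of_finite fun i => isOpen_iInter_of_finite fun _ =>
      (AffineSubspace.closed_of_finiteDimensional (P i)).isOpen_compl
  have hW : MeasurableSet W := hWo.measurableSet
  have hpW : p ∈ W := by
    simp only [hWdef, mem_iInter, mem_compl_iff, SetLike.mem_coe]
    exact fun i hi => hi
  refine ⟨W, P i0, ∑ i ∈ Finset.univ.filter (fun i => p ∈ P i), θ i, hWo, hpW, hp, hP i0, ?_, ?_⟩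
  · exact (hθ i0).trans
      (Finset.single_le_sum (f := θ) (fun i _ => Nat.zero_le _) (by simp [hp]))
  · refine Measure.ext fun s hs => ?_
    rw [Measure.restrict_apply hs, weight, Measure.finsetSum_apply, Measure.smul_apply,
      Measure.restrict_apply hs]
    simp only [Measure.smul_apply, smul_eq_mul]
    rw [Nat.cast_sum, Finset.sum_mul, Finset.sum_filter]
    apply Finset.sum_congr rfl
    intro i _
    by_cases hi : p ∈ P i
    · rw [if_pos hi, Measure.restrict_apply (hs.inter hW), hsame i hi]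
      congr 2
      ext x
      simp only [mem_inter_iff]
      tauto
    · rw [if_neg hi, Measure.restrict_apply (hs.inter hW)]
      have : s ∩ W ∩ (P i : Set (Amb N)) = ∅ := by
        ext x
        simp only [mem_inter_iff, mem_empty_iff_false, iff_false, not_and]
        rintro ⟨_, hxW⟩ hxP
        simp only [hWdef, mem_iInter, mem_compl_iff] at hxW
        exact hxW i hi hxP
      rw [this]
      simp

/-- For a finite sum of affine `m`-planes with positive integer multiplicities, the points of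
the planes that are not flat points of the weight measure form a set of Hausdorff dimension at
most `m - 1`. -/
theorem result {N m : ℕ} {ι : Type} [Fintype ι]
    (P : ι → AffineSubspace ℝ (Amb N)) (θ : ι → ℕ)
    (hP : ∀ i, finrank ℝ (P i).direction = m) (hθ : ∀ i, 1 ≤ θ i) :
    dimH {p : Amb N | (∃ i, p ∈ P i) ∧ ¬ IsFlatPoint m (weight m P θ) p}
      ≤ ((m - 1 : ℕ) : ℝ≥0∞) := by
  classical
  have hsub : {p : Amb N | (∃ i, p ∈ P i) ∧ ¬ IsFlatPoint m (weight m P θ) p} ⊆
      ⋃ ij : {ij : ι × ι // P ij.1 ≠ P ij.2},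
        ((P ij.1.1 : Set (Amb N)) ∩ (P ij.1.2 : Set (Amb N))) := by
    rintro p ⟨⟨i0, hp⟩, hnf⟩
    by_contra hcon
    apply hnf
    refine flat_of_single P θ hP hθ p i0 hp fun i hi => ?_
    by_contra hne
    exact hcon (mem_iUnion.2 ⟨⟨(i, i0), hne⟩, hi, hp⟩)
  refine (dimH_mono hsub).trans ?_
  rw [dimH_iUnion]
  exact iSup_le fun ij => inter_dim _ _ (hP _) (hP _) ij.2

end Vale.Agent.Results.P214.PlaneArrangements
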